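import Vale.Agent.P208H16.Defs

namespace Vale.Agent.P208H16

open Set Filter Topology

variable {E : Type*} [PseudoMetricSpace E]

/-- If all finite subsets of `X` embed into `ℝ^k` with distortion at most `D`, so does `X`. -/
theorem embeds_of_finite {k : ℕ} {D : ℝ} {X : Set E}
    (h : ∀ F ⊆ X, F.Finite → EmbedsWith k D F) : EmbedsWith k (max D 1) X := by
  classical
  by_cases hX : X.Nonempty
  swap
  · rw [not_nonempty_iff_eq_empty] at hX
    subst hX
    exact ⟨fun _ => 0, 1, one_pos, fun x hx => absurd hx (notMem_empty x)⟩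
  obtain ⟨x0, hx0⟩ := hX
  set D' := max D 1 with hD'
  have hD1 : (1:ℝ) ≤ D' := le_max_right _ _
  let K : Set (E → EuclideanSpace ℝ (Fin k)) :=
    Set.pi univ fun x => Metric.closedBall 0 (D' * dist x x0)
  have hK : IsCompact K := isCompact_univ_pi fun x => isCompact_closedBall _ _
  let t : (X × X) → Set (E → EuclideanSpace ℝ (Fin k)) := fun p =>
    {f | dist (p.1 : E) p.2 ≤ dist (f p.1) (f p.2) ∧ dist (f p.1) (f p.2) ≤ D' * dist (p.1 : E) p.2}
  have ht : ∀ p, IsClosed (t p) := by
    intro p
    have hc : Continuous fun f : E → EuclideanSpace ℝ (Fin k) => dist (f p.1) (f p.2) :=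
      (continuous_apply _).dist (continuous_apply _)
    exact (isClosed_le continuous_const hc).inter (isClosed_le hc continuous_const)
  have hfin : ∀ u : Finset (X × X), (K ∩ ⋂ p ∈ u, t p).Nonempty := by
    intro u
    set F : Set E := insert x0 ((fun p : X × X => (p.1 : E)) '' u ∪ (fun p : X × X => (p.2 : E)) '' u)
      with hF
    have hFX : F ⊆ X := by
      rintro z (rfl | ⟨p, _, rfl⟩ | ⟨p, _, rfl⟩)
      · exact hx0
      · exact p.1.2
      · exact p.2.2
    have hFf : F.Finite := ((u.finite_toSet.image _).union (u.finite_toSet.image _)).insert _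
    obtain ⟨f, a, ha, hf⟩ := h F hFX hFf
    let g : E → EuclideanSpace ℝ (Fin k) := fun x => if x ∈ F then a⁻¹ • (f x - f x0) else 0
    have hg : ∀ x ∈ F, ∀ y ∈ F, dist x y ≤ dist (g x) (g y) ∧ dist (g x) (g y) ≤ D' * dist x y := by
      intro x hx y hy
      have h1 : dist (g x) (g y) = a⁻¹ * dist (f x) (f y) := by
        simp only [g, if_pos hx, if_pos hy]
        rw [dist_smul₀, dist_sub_right, Real.norm_eq_abs, abs_of_pos (inv_pos.2 ha)]
      rw [h1]
      have h2 := hf x hx y hy
      constructor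
      · rw [inv_mul_eq_div, le_div_iff₀ ha]; linarith [h2.1]
      · rw [inv_mul_eq_div, div_le_iff₀ ha]
        have h3 : D * (a * dist x y) ≤ D' * (a * dist x y) :=
          mul_le_mul_of_nonneg_right (le_max_left _ _) (by positivity)
        nlinarith [h2.2]
    have hx0F : x0 ∈ F := Or.inl rfl
    have hg0 : g x0 = 0 := by simp [g]
    refine ⟨g, ?_, ?_⟩
    · intro x _
      by_cases hx : x ∈ F
      · have := (hg x hx x0 hx0F).2
        rw [hg0] at this
        exact this
      · simp only [g, if_neg hx]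
        rw [Metric.mem_closedBall, dist_self]
        have := dist_nonneg (x := x) (y := x0)
        positivity
    · simp only [mem_iInter]
      intro p hp
      exact hg _ (Or.inr (Or.inl ⟨p, hp, rfl⟩)) _ (Or.inr (Or.inr ⟨p, hp, rfl⟩))
  obtain ⟨f, _, hf⟩ := hK.inter_iInter_nonempty t ht hfin
  refine ⟨f, 1, one_pos, fun x hx y hy => ?_⟩
  have := mem_iInter.1 hf (⟨x, hx⟩, ⟨y, hy⟩)
  rw [one_mul, mul_one]
  exact this

end Vale.Agent.P208H16
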