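import Mathlib

namespace Vale.Agent.P208H16

open Set Filter Topology

/-- The set `X` (with the induced distance) is doubling with constant at most `N`: every ball of
`X` is covered by at most `N` balls of half its radius with centres in `X`. -/
def DoublingWith {E : Type*} [PseudoMetricSpace E] (N : ℕ) (X : Set E) : Prop :=
  ∀ x ∈ X, ∀ r : ℝ, 0 < r → ∃ C : Finset E, (C : Set E) ⊆ X ∧ C.card ≤ N ∧
    ∀ y ∈ X, dist y x ≤ r → ∃ c ∈ C, dist y c ≤ r / 2

/-- `X` is doubling. -/
def Doubling {E : Type*} [PseudoMetricSpace E] (X : Set E) : Prop := ∃ N, DoublingWith N X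

/-- `X` has a bi-Lipschitz embedding into `ℝ^k` (Euclidean norm) with distortion at most `D`. -/
def EmbedsWith {E : Type*} [PseudoMetricSpace E] (k : ℕ) (D : ℝ) (X : Set E) : Prop :=
  ∃ (f : E → EuclideanSpace ℝ (Fin k)) (a : ℝ), 0 < a ∧ ∀ x ∈ X, ∀ y ∈ X,
    a * dist x y ≤ dist (f x) (f y) ∧ dist (f x) (f y) ≤ D * a * dist x y

/-- `X` has a bi-Lipschitz embedding into some finite-dimensional Euclidean space. -/
def Embeds {E : Type*} [PseudoMetricSpace E] (X : Set E) : Prop :=
  ∃ (k : ℕ) (D : ℝ), EmbedsWith k D X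

section basic

variable {E : Type*} [PseudoMetricSpace E]

theorem EmbedsWith.mono {k : ℕ} {D D' : ℝ} {X Y : Set E} (h : EmbedsWith k D Y) (hXY : X ⊆ Y)
    (hD : D ≤ D') : EmbedsWith k D' X := by
  obtain ⟨f, a, ha, hf⟩ := h
  refine ⟨f, a, ha, fun x hx y hy => ⟨(hf x (hXY hx) y (hXY hy)).1, ?_⟩⟩
  refine (hf x (hXY hx) y (hXY hy)).2.trans ?_
  have : 0 ≤ a * dist x y := by positivity
  nlinarith [mul_le_mul_of_nonneg_right hD this]

theorem EmbedsWith.of_image {k : ℕ} {D s : ℝ} {X : Set E} {A : E → E} (hs : 0 < s)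
    (hA : ∀ x y, dist (A x) (A y) = s * dist x y) (h : EmbedsWith k D (A '' X)) :
    EmbedsWith k D X := by
  obtain ⟨f, a, ha, hf⟩ := h
  refine ⟨f ∘ A, a * s, by positivity, fun x hx y hy => ?_⟩
  have := hf (A x) (mem_image_of_mem A hx) (A y) (mem_image_of_mem A hy)
  rw [hA] at this
  constructor
  · calc a * s * dist x y = a * (s * dist x y) := by ring
      _ ≤ _ := this.1
  · calc _ ≤ _ := this.2
      _ = D * (a * s) * dist x y := by ring

theorem DoublingWith.image {N : ℕ} {s : ℝ} {X : Set E} {A : E → E} (hs : 0 < s)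
    (hA : ∀ x y, dist (A x) (A y) = s * dist x y) (h : DoublingWith N X) :
    DoublingWith N (A '' X) := by
  classical
  rintro _ ⟨x, hx, rfl⟩ r hr
  obtain ⟨C, hC, hc, hcov⟩ := h x hx (r / s) (by positivity)
  refine ⟨C.image A, ?_, (Finset.card_image_le).trans hc, ?_⟩
  · intro z hz
    simp only [Finset.coe_image, mem_image] at hz
    obtain ⟨c, hc, rfl⟩ := hz
    exact ⟨c, hC hc, rfl⟩
  · rintro _ ⟨y, hy, rfl⟩ hyx
    rw [hA] at hyx
    have h1 : dist y x ≤ r / s := by
      rw [le_div_iff₀ hs]; linarith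
    obtain ⟨c, hcC, hyc⟩ := hcov y hy h1
    refine ⟨A c, Finset.mem_image_of_mem A hcC, ?_⟩
    rw [hA]
    calc s * dist y c ≤ s * (r / s / 2) := by gcongr
      _ = r / 2 := by field_simp

theorem DoublingWith.mono {N M : ℕ} {X : Set E} (h : DoublingWith N X) (hNM : N ≤ M) :
    DoublingWith M X := by
  intro x hx r hr
  obtain ⟨C, h1, h2, h3⟩ := h x hx r hr
  exact ⟨C, h1, h2.trans hNM, h3⟩

/-- A subset of a set which is doubling with constant `N` is doubling with constant `N ^ 2`. -/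
theorem DoublingWith.subset {N : ℕ} {X Y : Set E} (h : DoublingWith N Y) (hXY : X ⊆ Y) :
    DoublingWith (N * N) X := by
  classical
  intro x hx r hr
  obtain ⟨C, hC, hCc, hcov⟩ := h x (hXY hx) r hr
  choose! B hB1 hB2 hB3 using fun c (hc : c ∈ Y) => h c hc (r / 2) (by positivity)
  -- second generation centres
  set T : Finset E := C.biUnion B with hT
  have hTc : T.card ≤ N * N := by
    calc T.card ≤ ∑ c ∈ C, (B c).card := Finset.card_biUnion_le
      _ ≤ ∑ _c ∈ C, N := Finset.sum_le_sum fun c hc => hB2 c (hC hc)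
      _ = C.card * N := by simp
      _ ≤ N * N := by gcongr
  let g : E → E := fun t => if ht : ∃ z ∈ X, dist z t ≤ r / 4 then ht.choose else x
  have hg : ∀ t, g t ∈ X := by
    intro t
    by_cases ht : ∃ z ∈ X, dist z t ≤ r / 4
    · simp only [g, dif_pos ht]; exact ht.choose_spec.1
    · simp only [g, dif_neg ht]; exact hx
  refine ⟨T.image g, ?_, Finset.card_image_le.trans hTc, ?_⟩
  · intro z hz
    simp only [Finset.coe_image, mem_image] at hz
    obtain ⟨t, _, rfl⟩ := hz
    exact hg t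
  · intro y hy hyx
    obtain ⟨c, hc, hyc⟩ := hcov y (hXY hy) hyx
    obtain ⟨t, ht, hyt⟩ := hB3 c (hC hc) y (hXY hy) hyc
    have hex : ∃ z ∈ X, dist z t ≤ r / 4 := ⟨y, hy, by linarith⟩
    refine ⟨g t, Finset.mem_image_of_mem g (Finset.mem_biUnion.2 ⟨c, hc, ht⟩), ?_⟩
    have h1 : dist (g t) t ≤ r / 4 := by
      simp only [g, dif_pos hex]; exact hex.choose_spec.2
    calc dist y (g t) ≤ dist y t + dist t (g t) := dist_triangle _ _ _
      _ ≤ r / 2 / 2 + r / 4 := by rw [dist_comm t]; gcongr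
      _ = r / 2 := by ring

end basic

end Vale.Agent.P208H16
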