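import Vale.Agent.P208H16.Defs

namespace Vale.Agent.P208H16

open Set Filter Topology

variable {E : Type*} [NormedAddCommGroup E] [NormedSpace ℝ E]

theorem norm_bounds {e y : E} (he : ‖e‖ = 1) {P : ℝ} (hP : 0 < P) (h : ‖y - P • e‖ ≤ P / 32) :
    31 / 32 * P ≤ ‖y‖ ∧ ‖y‖ ≤ 33 / 32 * P := by
  have h1 : ‖P • e‖ = P := by rw [norm_smul, he, Real.norm_eq_abs, abs_of_pos hP, mul_one]
  have h2 := norm_sub_norm_le (P • e) y
  rw [norm_sub_rev, h1] at h2
  have h3 := norm_sub_norm_le y (P • e)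
  rw [h1] at h3
  constructor <;> linarith

/-- points of two different pieces are far apart -/
theorem far {n : ℕ → ℤ} (hn : Function.Injective n) {m j : ℕ} (hmj : j ≠ m) {x y : E}
    (hx : 31 / 32 * (2:ℝ) ^ (n m) ≤ ‖x‖ ∧ ‖x‖ ≤ 33 / 32 * (2:ℝ) ^ (n m))
    (hy : 31 / 32 * (2:ℝ) ^ (n j) ≤ ‖y‖ ∧ ‖y‖ ≤ 33 / 32 * (2:ℝ) ^ (n j)) :
    29 / 64 * (2:ℝ) ^ (n m) ≤ dist y x := by
  have hne : n j ≠ n m := fun h => hmj (hn h)
  have hPm : (0:ℝ) < 2 ^ (n m) := by positivity
  have hPj : (0:ℝ) < 2 ^ (n j) := by positivity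
  rw [dist_eq_norm]
  rcases lt_or_gt_of_ne hne with hlt | hgt
  · have h1 : (2:ℝ) ^ (n j) ≤ 2 ^ (n m) / 2 := by
      have : (2:ℝ) ^ (n j) ≤ 2 ^ (n m - 1) := zpow_le_zpow_right₀ (by norm_num) (by omega)
      rwa [zpow_sub_one₀ (by norm_num : (2:ℝ) ≠ 0), ← div_eq_mul_inv] at this
    have h2 := norm_sub_norm_le x y
    rw [norm_sub_rev] at h2
    linarith
  · have h1 : 2 * (2:ℝ) ^ (n m) ≤ 2 ^ (n j) := by
      have : (2:ℝ) ^ (n m + 1) ≤ 2 ^ (n j) := zpow_le_zpow_right₀ (by norm_num) (by omega)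
      rw [zpow_add_one₀ (by norm_num : (2:ℝ) ≠ 0)] at this
      linarith
    have h2 := norm_sub_norm_le y x
    linarith

theorem glue_doubling {e : E} (he : ‖e‖ = 1) {n : ℕ → ℤ} (hn : Function.Injective n) {N : ℕ}
    {Y : ℕ → Set E} (hp : ∀ m, (2:ℝ) ^ (n m) • e ∈ Y m)
    (hY : ∀ m, ∀ y ∈ Y m, ‖y - (2:ℝ) ^ (n m) • e‖ ≤ (2:ℝ) ^ (n m) / 32)
    (hd : ∀ m, DoublingWith N (Y m)) : DoublingWith (max N 5) (insert 0 (⋃ m, Y m)) := by
  classical
  intro x hx r hr
  have hb : ∀ m, ∀ y ∈ Y m, 31 / 32 * (2:ℝ) ^ (n m) ≤ ‖y‖ ∧ ‖y‖ ≤ 33 / 32 * (2:ℝ) ^ (n m) :=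
    fun m y hy => norm_bounds he (by positivity) (hY m y hy)
  by_cases hA : ∃ m, x ∈ Y m ∧ r < (2:ℝ) ^ (n m) / 4
  · obtain ⟨m, hxm, hrm⟩ := hA
    have hPm : (0:ℝ) < 2 ^ (n m) := by positivity
    obtain ⟨C, hC, hCc, hcov⟩ := hd m x hxm r hr
    refine ⟨C, ?_, hCc.trans (le_max_left _ _), ?_⟩
    · exact fun z hz => Or.inr (mem_iUnion.2 ⟨m, hC hz⟩)
    · intro y hy hyx
      refine hcov y ?_ hyx
      rcases hy with rfl | hy
      · exfalso
        rw [dist_zero_left] at hyx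
        have := (hb m x hxm).1
        linarith
      · obtain ⟨j, hj⟩ := mem_iUnion.1 hy
        by_cases hjm : j = m
        · exact hjm ▸ hj
        · exfalso
          have := far hn hjm (hb m x hxm) (hb j y hj)
          linarith
  · have hxr : ‖x‖ ≤ 5 * r := by
      rcases hx with rfl | hx
      · rw [norm_zero]; positivity
      · obtain ⟨m, hm⟩ := mem_iUnion.1 hx
        have h1 : (2:ℝ) ^ (n m) / 4 ≤ r := by
          by_contra hcon
          exact hA ⟨m, hm, not_le.1 hcon⟩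
        have := (hb m x hm).2
        linarith
    obtain ⟨n0, hn0, hn1⟩ := exists_mem_Ico_zpow (x := 16 / 33 * r) (y := (2:ℝ))
      (by positivity) (by norm_num)
    set C : Finset E := insert 0 (((Finset.Icc (n0 + 1) (n0 + 4)).filter
      (fun z => ∃ j, n j = z)).image (fun z : ℤ => (2:ℝ) ^ z • e)) with hC
    refine ⟨C, ?_, ?_, ?_⟩
    · intro z hz
      simp only [hC, Finset.coe_insert, Finset.coe_image, mem_insert_iff, mem_image,
        Finset.coe_filter, mem_setOf_eq] at hz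
      rcases hz with rfl | ⟨w, ⟨_, j, rfl⟩, rfl⟩
      · exact Or.inl rfl
      · exact Or.inr (mem_iUnion.2 ⟨j, hp j⟩)
    · refine le_trans ?_ (le_max_right _ _)
      calc C.card ≤ _ + 1 := Finset.card_insert_le _ _
        _ ≤ (Finset.Icc (n0 + 1) (n0 + 4)).card + 1 := by
          gcongr
          exact Finset.card_image_le.trans (Finset.card_filter_le _ _)
        _ = 5 := by
          rw [Int.card_Icc]
          have : n0 + 4 + 1 - (n0 + 1) = 4 := by ring
          rw [this]; rfl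
    · intro y hy hyx
      have hy6 : ‖y‖ ≤ 6 * r := by
        have h1 := norm_sub_norm_le y x
        rw [← dist_eq_norm] at h1
        linarith
      by_cases hyr : ‖y‖ ≤ r / 2
      · exact ⟨0, by simp [hC], by rwa [dist_zero_right]⟩
      · rcases hy with rfl | hy
        · exfalso; apply hyr; rw [norm_zero]; positivity
        · obtain ⟨j, hj⟩ := mem_iUnion.1 hy
          have hPj : (0:ℝ) < 2 ^ (n j) := by positivity
          have hbj := hb j y hj
          push Not at hyr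
          have h1 : (2:ℝ) ^ n0 < 2 ^ (n j) := by linarith
          have h2 : (2:ℝ) ^ (n j) < 2 ^ (n0 + 5) := by
            have e1 : (2:ℝ) ^ (n0 + 5) = 2 ^ (n0 + 1) * 16 := by
              rw [show n0 + 5 = (n0 + 1) + 4 by ring, zpow_add₀ (by norm_num : (2:ℝ) ≠ 0)]
              norm_num
            rw [e1]; linarith
          have h1' : n0 < n j := (zpow_lt_zpow_iff_right₀ (by norm_num)).1 h1
          have h2' : n j < n0 + 5 := (zpow_lt_zpow_iff_right₀ (by norm_num)).1 h2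
          refine ⟨(2:ℝ) ^ (n j) • e, ?_, ?_⟩
          · rw [hC]
            refine Finset.mem_insert_of_mem (Finset.mem_image.2 ⟨n j, ?_, rfl⟩)
            rw [Finset.mem_filter, Finset.mem_Icc]
            exact ⟨⟨by omega, by omega⟩, j, rfl⟩
          · rw [dist_eq_norm]
            have := hY j y hj
            linarith

end Vale.Agent.P208H16
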