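import Vale.Agent.P208H16.Glue
import Vale.Agent.P208H16.Compact

namespace Vale.Agent.P208H16

open Set Filter Topology

variable {E : Type*} [NormedAddCommGroup E] [NormedSpace ℝ E]

theorem dist_aff (P s : ℝ) (hs : 0 < s) (e x0 y z : E) :
    dist (P • e + s • (y - x0)) (P • e + s • (z - x0)) = s * dist y z := by
  rw [dist_add_left, dist_smul₀, dist_sub_right, Real.norm_eq_abs, abs_of_pos hs]

theorem glue_bad {e : E} (he : ‖e‖ = 1) {N : ℕ} {n : ℕ → ℤ} (hn : Function.Injective n)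
    {X : ℕ → Set E} {x : ℕ → E} {s : ℕ → ℝ} (hx : ∀ m, x m ∈ X m) (hs : ∀ m, 0 < s m)
    (hsm : ∀ m, ∀ y ∈ X m, s m * dist y (x m) ≤ (2:ℝ) ^ (n m) / 32)
    (hd : ∀ m, DoublingWith N (X m))
    (hbad : ∀ m, ¬ EmbedsWith (Nat.unpair m).1 ((Nat.unpair m).2 : ℝ) (X m)) :
    DoublingWith (max N 5)
      (insert 0 (⋃ m, (fun y => (2:ℝ) ^ (n m) • e + s m • (y - x m)) '' X m)) ∧
    ¬ Embeds (insert 0 (⋃ m, (fun y => (2:ℝ) ^ (n m) • e + s m • (y - x m)) '' X m)) := by
  constructor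
  · refine glue_doubling he hn (fun m => ⟨x m, hx m, by simp⟩) ?_ ?_
    · rintro m _ ⟨y, hy, rfl⟩
      have := hsm m y hy
      simp only [add_sub_cancel_left]
      rwa [norm_smul, Real.norm_eq_abs, abs_of_pos (hs m), ← dist_eq_norm]
    · exact fun m => (hd m).image (hs m) (dist_aff _ _ (hs m) _ _)
  · rintro ⟨k, D, hU⟩
    obtain ⟨D', hD'⟩ := exists_nat_ge D
    have hb := hbad (Nat.pair k D')
    rw [Nat.unpair_pair] at hb
    apply hb
    refine EmbedsWith.of_image (s := s (Nat.pair k D'))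
      (A := fun y => (2:ℝ) ^ (n (Nat.pair k D')) • e + s (Nat.pair k D') • (y - x (Nat.pair k D')))
      (hs _) (dist_aff _ _ (hs _) e (x (Nat.pair k D'))) ?_
    refine hU.mono ?_ hD'
    exact (subset_iUnion (fun m => (fun y => (2:ℝ) ^ (n m) • e + s m • (y - x m)) '' X m)
      (Nat.pair k D')).trans (subset_insert _ _)

/-- The negation of the uniform finite form, packaged. -/
theorem pick {N : ℕ} (hneg : ∀ k : ℕ, ∀ D : ℝ, ∃ X : Set E, X.Finite ∧ DoublingWith N X ∧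
    ¬ EmbedsWith k D X) :
    ∃ (X : ℕ → Set E) (x : ℕ → E) (R : ℕ → ℝ), (∀ m, (X m).Finite) ∧ (∀ m, x m ∈ X m) ∧
      (∀ m, 0 < R m) ∧ (∀ m, ∀ y ∈ X m, dist y (x m) ≤ R m) ∧ (∀ m, DoublingWith N (X m)) ∧
      (∀ m, ¬ EmbedsWith (Nat.unpair m).1 ((Nat.unpair m).2 : ℝ) (X m)) := by
  choose X hXf hXd hXb using fun m : ℕ => hneg (Nat.unpair m).1 ((Nat.unpair m).2 : ℝ)
  have hne : ∀ m, (X m).Nonempty := by
    intro m
    by_contra hcon
    rw [not_nonempty_iff_eq_empty] at hcon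
    exact hXb m ⟨fun _ => 0, 1, one_pos, fun x hx => absurd hx (by rw [hcon]; exact notMem_empty x)⟩
  choose x hx using hne
  have hR : ∀ m, ∃ R : ℝ, 0 < R ∧ ∀ y ∈ X m, dist y (x m) ≤ R := by
    intro m
    obtain ⟨R, hR⟩ := (hXf m).isBounded.subset_closedBall (x m)
    exact ⟨max R 1, by positivity, fun y hy => (hR hy).trans (le_max_left _ _)⟩
  choose R hR0 hR using hR
  exact ⟨X, x, R, hXf, hx, hR0, hR, hXd, hXb⟩

/-- From the failure of the uniform finite form: a bad set converging to `0`. -/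
theorem bad_null {e : E} (he : ‖e‖ = 1) {N : ℕ} (hneg : ∀ k : ℕ, ∀ D : ℝ, ∃ X : Set E, X.Finite ∧
    DoublingWith N X ∧ ¬ EmbedsWith k D X) :
    ∃ U : Set E, (0:E) ∈ U ∧ (∀ ε : ℝ, 0 < ε → {u ∈ U | ε ≤ ‖u‖}.Finite) ∧
      DoublingWith (max N 5) U ∧ ¬ Embeds U := by
  obtain ⟨X, x, R, hXf, hx, hR0, hR, hXd, hXb⟩ := pick hneg
  set n : ℕ → ℤ := fun m => -(m:ℤ) with hndef
  have hn : Function.Injective n := by
    intro a b hab
    simp only [hndef, neg_inj, Nat.cast_inj] at hab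
    exact hab
  set s : ℕ → ℝ := fun m => (2:ℝ) ^ (n m) / 32 / R m with hsdef
  have hs : ∀ m, 0 < s m := fun m => by
    have := hR0 m
    positivity
  have hsm : ∀ m, ∀ y ∈ X m, s m * dist y (x m) ≤ (2:ℝ) ^ (n m) / 32 := by
    intro m y hy
    have h1 := hR m y hy
    have h2 := hR0 m
    calc s m * dist y (x m) ≤ s m * R m := by
          have := hs m
          gcongr
      _ = (2:ℝ) ^ (n m) / 32 := by simp only [hsdef]; field_simp
  obtain ⟨hU1, hU2⟩ := glue_bad he hn hx hs hsm hXd hXb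
  refine ⟨_, Or.inl rfl, ?_, hU1, hU2⟩
  intro ε hε
  obtain ⟨M, hM⟩ := exists_pow_lt_of_lt_one (show 0 < ε / 2 by positivity)
    (show (1 / 2 : ℝ) < 1 by norm_num)
  refine Set.Finite.subset (s := ⋃ m ∈ Finset.range M,
    (fun y => (2:ℝ) ^ (n m) • e + s m • (y - x m)) '' X m) ?_ ?_
  · exact Set.Finite.biUnion (Finset.finite_toSet _) fun m _ => (hXf m).image _
  · rintro u ⟨hu, hεu⟩
    rcases hu with rfl | hu
    · exfalso; rw [norm_zero] at hεu; linarith
    · obtain ⟨m, hm⟩ := mem_iUnion.1 hu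
      have hmM : m < M := by
        by_contra hcon
        push Not at hcon
        obtain ⟨y, hy, rfl⟩ := hm
        have h1 : ‖((2:ℝ) ^ (n m) • e + s m • (y - x m)) - (2:ℝ) ^ (n m) • e‖ ≤
            (2:ℝ) ^ (n m) / 32 := by
          have := hsm m y hy
          rw [add_sub_cancel_left, norm_smul, Real.norm_eq_abs, abs_of_pos (hs m), ← dist_eq_norm]
          exact this
        have h2 := (norm_bounds he (by positivity) h1).2
        have h3 : (2:ℝ) ^ (n m) ≤ (1 / 2) ^ M := by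
          have e1 : (2:ℝ) ^ (n m) = (1 / 2) ^ m := by
            simp only [hndef, zpow_neg, zpow_natCast, one_div, inv_pow]
          rw [e1]
          exact pow_le_pow_of_le_one (by norm_num) (by norm_num) hcon
        simp only at hεu
        have hP : (0:ℝ) < 2 ^ (n m) := by positivity
        linarith
      exact mem_iUnion₂.2 ⟨m, Finset.mem_range.2 hmM, hm⟩

end Vale.Agent.P208H16
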