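import Vale.Agent.P208H16.Main

namespace Vale.Agent.P208H16

open Set Filter Topology

variable {E : Type*} [NormedAddCommGroup E] [NormedSpace ℝ E]

theorem sep_finite {X : Set E} (hX : X.Finite) :
    ∃ δ : ℝ, 0 < δ ∧ ∀ y ∈ X, ∀ z ∈ X, y ≠ z → δ ≤ dist y z := by
  have hP : ((X ×ˢ X) \ {p | p.1 = p.2}).Finite := (hX.prod hX).diff
  by_cases hne : ((X ×ˢ X) \ {p | p.1 = p.2}).Nonempty
  · obtain ⟨p, hp, hmin⟩ := Set.exists_min_image _ (fun p : E × E => dist p.1 p.2) hP hne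
    exact ⟨dist p.1 p.2, dist_pos.2 hp.2, fun y hy z hz hyz => hmin (y, z) ⟨⟨hy, hz⟩, hyz⟩⟩
  · refine ⟨1, one_pos, fun y hy z hz hyz => ?_⟩
    exact absurd ⟨(y, z), ⟨hy, hz⟩, hyz⟩ hne

/-- From the failure of the uniform finite form: a bad set with all distances at least `1`. -/
theorem bad_sep {e : E} (he : ‖e‖ = 1) {N : ℕ} (hneg : ∀ k : ℕ, ∀ D : ℝ, ∃ X : Set E, X.Finite ∧
    DoublingWith N X ∧ ¬ EmbedsWith k D X) :
    ∃ U : Set E, (∀ u ∈ U, ∀ v ∈ U, u ≠ v → 1 ≤ dist u v) ∧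
      DoublingWith (max N 5) U ∧ ¬ Embeds U := by
  obtain ⟨X, x, R, hXf, hx, hR0, hR, hXd, hXb⟩ := pick hneg
  choose δ hδ0 hδ using fun m => sep_finite (hXf m)
  have hev : ∀ m : ℕ, ∀ᶠ q : ℕ in atTop, 2 ≤ q ∧ 32 * ((δ m)⁻¹ * R m) ≤ (2:ℝ) ^ q := by
    intro m
    refine (eventually_ge_atTop 2).and ?_
    exact (tendsto_pow_atTop_atTop_of_one_lt (by norm_num : (1:ℝ) < 2)).eventually_ge_atTop _
  obtain ⟨φ, hφ, hφ2⟩ := extraction_forall_of_eventually hev
  set n : ℕ → ℤ := fun m => (φ m : ℤ) with hndef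
  have hn : Function.Injective n := by
    intro a b hab
    simp only [hndef, Nat.cast_inj] at hab
    exact hφ.injective hab
  have hpow : ∀ m, (2:ℝ) ^ (n m) = 2 ^ (φ m) := fun m => by simp only [hndef, zpow_natCast]
  have hP4 : ∀ m, (4:ℝ) ≤ 2 ^ (n m) := by
    intro m
    rw [hpow]
    calc (4:ℝ) = 2 ^ 2 := by norm_num
      _ ≤ 2 ^ (φ m) := pow_le_pow_right₀ (by norm_num) (hφ2 m).1
  set s : ℕ → ℝ := fun m => (δ m)⁻¹ with hsdef
  have hs : ∀ m, 0 < s m := fun m => inv_pos.2 (hδ0 m)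
  have hsm : ∀ m, ∀ y ∈ X m, s m * dist y (x m) ≤ (2:ℝ) ^ (n m) / 32 := by
    intro m y hy
    have h1 := hR m y hy
    have h3 := (hφ2 m).2
    rw [hpow]
    calc s m * dist y (x m) ≤ s m * R m := by
          have := hs m
          gcongr
      _ ≤ (2:ℝ) ^ (φ m) / 32 := by simp only [hsdef]; linarith
  obtain ⟨hU1, hU2⟩ := glue_bad he hn hx hs hsm hXd hXb
  refine ⟨_, ?_, hU1, hU2⟩
  have hb : ∀ m, ∀ u ∈ (fun y => (2:ℝ) ^ (n m) • e + s m • (y - x m)) '' X m,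
      31 / 32 * (2:ℝ) ^ (n m) ≤ ‖u‖ ∧ ‖u‖ ≤ 33 / 32 * (2:ℝ) ^ (n m) := by
    rintro m _ ⟨y, hy, rfl⟩
    refine norm_bounds he (by positivity) ?_
    have := hsm m y hy
    rw [add_sub_cancel_left, norm_smul, Real.norm_eq_abs, abs_of_pos (hs m), ← dist_eq_norm]
    exact this
  intro u hu v hv huv
  rcases hu with rfl | hu
  · rcases hv with rfl | hv
    · exact absurd rfl huv
    · obtain ⟨j, hj⟩ := mem_iUnion.1 hv
      have h1 := (hb j v hj).1
      have h2 := hP4 j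
      rw [dist_zero_left]
      linarith
  · obtain ⟨m, hm⟩ := mem_iUnion.1 hu
    rcases hv with rfl | hv
    · have h1 := (hb m u hm).1
      have h2 := hP4 m
      rw [dist_zero_right]
      linarith
    · obtain ⟨j, hj⟩ := mem_iUnion.1 hv
      by_cases hjm : j = m
      · subst hjm
        obtain ⟨y, hy, rfl⟩ := hm
        obtain ⟨z, hz, rfl⟩ := hj
        have hyz : y ≠ z := fun h => huv (by rw [h])
        have h1 := hδ j y hy z hz hyz
        simp only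
        rw [dist_aff _ _ (hs j)]
        simp only [hsdef]
        rw [inv_mul_eq_div, le_div_iff₀ (hδ0 j), one_mul]
        exact h1
      · have h1 := far hn hjm (hb m u hm) (hb j v hj)
        have h2 := hP4 m
        rw [dist_comm]
        linarith

end Vale.Agent.P208H16
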